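import Mathlib
import Vale.Agent.Lib.P074.Basic

namespace Vale.Agent.Results.P074.A_AffineFamilies

open MeasureTheory
open Vale.Agent.Lib.P074

/-- Stability of quadratic optimal transport maps with exponent one and constant one on two
special classes of pairs of targets.  Let `ρ` be a Borel probability measure on `ℝ^d` with
bounded support.

1. Homothetic targets: if `μ` is a boundedly supported Borel probability measure, `T` a quadratic
   optimal transport map from `ρ` to `μ`, `lam > 0` and `v` a vector, and `ν` is the image of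
   `μ` under `y ↦ lam • y + v`, then `x ↦ lam • T x + v` is a quadratic optimal transport map
   from `ρ` to `ν`, and its squared `L²(ρ)` distance to `T` equals the squared quadratic
   Wasserstein distance of `μ` and `ν`.
2. Axis-parallel affine images of the source: if `A x = (a i * x i + u i)_i` and
   `B x = (b i * x i + w i)_i` with all `a i, b i > 0`, then `A` and `B` are quadratic optimal
   transport maps from `ρ` to the image measures `ρ.map A` and `ρ.map B`, and their squared
   `L²(ρ)` distance equals the squared quadratic Wasserstein distance of the two images. -/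
theorem result (d : ℕ) (ρ : Measure (EuclideanSpace ℝ (Fin d))) [IsProbabilityMeasure ρ]
    (R : ℝ) (hρ : ∀ᵐ x ∂ρ, ‖x‖ ≤ R) :
    (∀ (μ : Measure (EuclideanSpace ℝ (Fin d))) [IsProbabilityMeasure μ],
      (∀ᵐ y ∂μ, ‖y‖ ≤ R) → ∀ T : EuclideanSpace ℝ (Fin d) → EuclideanSpace ℝ (Fin d),
      IsOptimalMap ρ μ T → ∀ (lam : ℝ) (v : EuclideanSpace ℝ (Fin d)), 0 < lam →
        IsOptimalMap ρ (μ.map (fun y => lam • y + v)) (fun x => lam • T x + v) ∧
        ∫ x, ‖(lam • T x + v) - T x‖ ^ 2 ∂ρ = W2sq μ (μ.map (fun y => lam • y + v))) ∧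
    (∀ a b u w : Fin d → ℝ, (∀ i, 0 < a i) → (∀ i, 0 < b i) →
        IsOptimalMap ρ (ρ.map (diagAffine a u)) (diagAffine a u) ∧
        IsOptimalMap ρ (ρ.map (diagAffine b w)) (diagAffine b w) ∧
        ∫ x, ‖diagAffine a u x - diagAffine b w x‖ ^ 2 ∂ρ
          = W2sq (ρ.map (diagAffine a u)) (ρ.map (diagAffine b w))) :=
  ⟨fun μ _ hμ T hT lam v hlam => homothety_main R hρ hμ T hT lam hlam v,
    fun a b u w ha hb => axis_main d ρ R hρ a b u w ha hb⟩

end Vale.Agent.Results.P074.A_AffineFamilies
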